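import Mathlib
import Vale.Agent.Lib.P068.Main

/-!
# P317: basic counting facts on finite matroids
-/

namespace Vale.Agent.Lib.P317

open Set

variable {α : Type*} [Finite α] {M : Matroid α} {r : ℕ}

theorem base_ncard (hr : M.eRank = r) {B : Set α} (hB : M.IsBase B) : B.ncard = r := by
  have h := hB.encard_eq_eRank
  rw [hr, ← (toFinite B).cast_ncard_eq] at h
  exact_mod_cast h

theorem indep_ncard_le (hr : M.eRank = r) {I : Set α} (hI : M.Indep I) : I.ncard ≤ r := by
  have h := hI.encard_le_eRank
  rw [hr, ← (toFinite I).cast_ncard_eq] at h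
  exact_mod_cast h

theorem base_of_ncard (hr : M.eRank = r) {I : Set α} (hI : M.Indep I) (h : r ≤ I.ncard) :
    M.IsBase I := by
  obtain ⟨B, hB, hIB⟩ := hI.exists_isBase_superset
  have hBr := base_ncard hr hB
  have : I = B := eq_of_subset_of_ncard_le hIB (by omega) (toFinite B)
  exact this ▸ hB

/-- An independent set inside the closure of `Z` has at most `|Z|` elements. -/
theorem ncard_le_of_subset_closure {Y Z : Set α} (hY : M.Indep Y) (h : Y ⊆ M.closure Z) :
    Y.ncard ≤ Z.ncard := by
  have h1 : Y.encard ≤ Z.encard := by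
    calc Y.encard = M.eRk Y := hY.eRk_eq_encard.symm
      _ ≤ M.eRk (M.closure Z) := M.eRk_mono h
      _ = M.eRk Z := M.eRk_closure_eq Z
      _ ≤ Z.encard := M.eRk_le_encard Z
  rw [← (toFinite Y).cast_ncard_eq, ← (toFinite Z).cast_ncard_eq] at h1
  exact_mod_cast h1

/-- If `I` and `K` are independent, `I` lies in the closure of `K` and `|K| ≤ |I|`, then the
closure of `K` lies in the closure of `I`. -/
theorem closure_subset_of_ncard_le {I K : Set α} (hI : M.Indep I) (hK : M.Indep K)
    (h : I ⊆ M.closure K) (hc : K.ncard ≤ I.ncard) : M.closure K ⊆ M.closure I := by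
  obtain ⟨I', hI', hII'⟩ := hI.subset_isBasis_of_subset h
  have hKb : M.IsBasis K (M.closure K) := hK.isBasis_closure
  have he : I'.encard = K.encard := hI'.encard_eq_encard hKb
  have hn : I'.ncard = K.ncard := by
    rw [← (toFinite I').cast_ncard_eq, ← (toFinite K).cast_ncard_eq] at he
    exact_mod_cast he
  have : I = I' := eq_of_subset_of_ncard_le hII' (by omega) (toFinite I')
  rw [this]
  exact hI'.subset_closure

/-- If `x` lies in the closure of the independent set `I` but not in `I`, then `insert x I` is
not independent. -/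
theorem not_indep_insert {I : Set α} {x : α} (hI : M.Indep I) (hx : x ∈ M.closure I)
    (hxI : x ∉ I) : ¬ M.Indep (insert x I) := by
  rcases hI.mem_closure_iff.1 hx with h | h
  · exact h.not_indep
  · exact absurd h hxI

end Vale.Agent.Lib.P317
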