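import Mathlib
import Vale.Agent.Lib.P317.Basic

/-!
# P317: the key lemma (from the matroid intersection theorem)
-/

namespace Vale.Agent.Lib.P317

open Set Vale.Agent.Lib.P068

theorem arith {b1 b2 i k1 k2 k3 jm jn c d r : ℕ} (hc1 : k1 = jm + c) (hc2 : k2 = jn + c)
    (hc3 : k3 = jm + jn + c) (hK : k3 < r) (hC : c = d + 1) (hb1 : b1 ≤ k1) (hb2 : b2 ≤ k2)
    (hie : r + i = b1 + b2) (hD : d ≤ i) : k1 ≤ b1 ∧ k2 ≤ b2 ∧ i ≤ d := by
  omega

variable {α : Type*} [Finite α]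

/-- Let `B` be a common base, `D ⊆ B`, `e ∉ B`, such that `insert e D` is independent in both
matroids but lies in no common base. Then there is `F ⊆ B` such that the `M₁`-closure of `B \ F`
and the `M₂`-closure of `D ∪ F` cover everything and both contain `e`. -/
theorem key (M₁ M₂ : Matroid α) (r : ℕ) (hE₁ : M₁.E = univ) (hE₂ : M₂.E = univ)
    (hr₁ : M₁.eRank = r) (hr₂ : M₂.eRank = r) {B D : Set α} {e : α}
    (hB₁ : M₁.IsBase B) (hB₂ : M₂.IsBase B) (hDB : D ⊆ B) (heB : e ∉ B)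
    (hC₁ : M₁.Indep (insert e D)) (hC₂ : M₂.Indep (insert e D))
    (hmax : ∀ B', M₁.IsBase B' → M₂.IsBase B' → ¬ insert e D ⊆ B') :
    ∃ F : Set α, F ⊆ B ∧ (∀ x, x ∈ M₁.closure (B \ F) ∨ x ∈ M₂.closure (D ∪ F)) ∧
      e ∈ M₁.closure (B \ F) ∧ e ∈ M₂.closure (D ∪ F) := by
  classical
  set C : Set α := insert e D with hC
  have heD : e ∉ D := fun h => heB (hDB h)
  have hCcard : C.ncard = D.ncard + 1 := ncard_insert_of_notMem heD (toFinite D)
  have hfin : (M₂.contract C).RankFinite := by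
    have : M₂.Finite := ⟨toFinite _⟩
    infer_instance
  obtain ⟨JM, JN, hdisj, hJ₁, hJ₂, hcov⟩ :=
    satInt_of_rankFinite (M₁.contract C) (M₂.contract C) (by simp [hE₁, hE₂])
  rw [hC₁.contract_indep_iff] at hJ₁
  rw [hC₂.contract_indep_iff] at hJ₂
  obtain ⟨hJC, hK₁⟩ := hJ₁
  obtain ⟨-, hK₂⟩ := hJ₂
  rw [Matroid.contract_closure_eq, Matroid.contract_closure_eq, Matroid.contract_ground, hE₁]
    at hcov
  set P := M₁.closure (JM ∪ C) with hP
  set Q := M₂.closure (JN ∪ C) with hQ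
  have hCP : C ⊆ P := subset_union_right.trans (M₁.subset_closure _ (by simp [hE₁]))
  have hCQ : C ⊆ Q := subset_union_right.trans (M₂.subset_closure _ (by simp [hE₂]))
  have hPQ : ∀ x, x ∈ P ∨ x ∈ Q := by
    intro x
    by_cases hx : x ∈ C
    · exact Or.inl (hCP hx)
    · have : x ∈ P \ C ∪ Q \ C := by rw [hcov]; exact ⟨mem_univ x, hx⟩
      rcases this with h | h
      · exact Or.inl h.1
      · exact Or.inr h.1
  -- cardinalities
  have hKlt : (JM ∪ JN ∪ C).ncard < r := by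
    by_contra hge
    push Not at hge
    exact hmax _ (base_of_ncard hr₁ hK₁ hge) (base_of_ncard hr₂ hK₂ hge) subset_union_right
  have hJMC : Disjoint JM C := hJC.mono_left subset_union_left
  have hJNC : Disjoint JN C := hJC.mono_left subset_union_right
  have hc1 : (JM ∪ C).ncard = JM.ncard + C.ncard :=
    ncard_union_eq hJMC (toFinite _) (toFinite _)
  have hc2 : (JN ∪ C).ncard = JN.ncard + C.ncard :=
    ncard_union_eq hJNC (toFinite _) (toFinite _)
  have hc3 : (JM ∪ JN ∪ C).ncard = JM.ncard + JN.ncard + C.ncard := by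
    rw [ncard_union_eq hJC (toFinite _) (toFinite _), ncard_union_eq hdisj (toFinite _) (toFinite _)]
  have hI₁ : M₁.Indep (JM ∪ C) :=
    hK₁.subset (union_subset_union_left _ subset_union_left)
  have hI₂ : M₂.Indep (JN ∪ C) :=
    hK₂.subset (union_subset_union_left _ subset_union_right)
  have hB1i : M₁.Indep (B ∩ P) := hB₁.indep.subset inter_subset_left
  have hB2i : M₂.Indep (B ∩ Q) := hB₂.indep.subset inter_subset_left
  have hb1 : (B ∩ P).ncard ≤ (JM ∪ C).ncard := ncard_le_of_subset_closure hB1i inter_subset_right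
  have hb2 : (B ∩ Q).ncard ≤ (JN ∪ C).ncard := ncard_le_of_subset_closure hB2i inter_subset_right
  have hBr : B.ncard = r := base_ncard hr₁ hB₁
  have hun : (B ∩ P) ∪ (B ∩ Q) = B := by
    ext x
    constructor
    · rintro (h | h) <;> exact h.1
    · intro hx
      rcases hPQ x with h | h
      · exact Or.inl ⟨hx, h⟩
      · exact Or.inr ⟨hx, h⟩
  have hDsub : D ⊆ (B ∩ P) ∩ (B ∩ Q) := fun x hx =>
    ⟨⟨hDB hx, hCP (mem_insert_of_mem _ hx)⟩, ⟨hDB hx, hCQ (mem_insert_of_mem _ hx)⟩⟩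
  have hie := ncard_union_add_ncard_inter (B ∩ P) (B ∩ Q) (toFinite _) (toFinite _)
  rw [hun, hBr] at hie
  have hDle : D.ncard ≤ ((B ∩ P) ∩ (B ∩ Q)).ncard := ncard_le_ncard hDsub (toFinite _)
  obtain ⟨e1, e2, e3⟩ := arith hc1 hc2 hc3 hKlt hCcard hb1 hb2 hie hDle
  have hDeq : D = (B ∩ P) ∩ (B ∩ Q) := eq_of_subset_of_ncard_le hDsub e3 (toFinite _)
  have hPsub : P ⊆ M₁.closure (B ∩ P) :=
    closure_subset_of_ncard_le hB1i hI₁ inter_subset_right e1
  have hQsub : Q ⊆ M₂.closure (B ∩ Q) :=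
    closure_subset_of_ncard_le hB2i hI₂ inter_subset_right e2
  have hF1 : B \ (B \ P) = B ∩ P := by
    ext x
    constructor
    · rintro ⟨hx, hn⟩
      exact ⟨hx, by_contra fun h => hn ⟨hx, h⟩⟩
    · rintro ⟨hx, hp⟩
      exact ⟨hx, fun h => h.2 hp⟩
  have hF2 : D ∪ (B \ P) = B ∩ Q := by
    ext x
    constructor
    · rintro (h | h)
      · exact (hDsub h).2
      · rcases hPQ x with h' | h'
        · exact absurd h' h.2
        · exact ⟨h.1, h'⟩
    · intro hx
      by_cases hxP : x ∈ P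
      · left; rw [hDeq]; exact ⟨⟨hx.1, hxP⟩, hx⟩
      · right; exact ⟨hx.1, hxP⟩
  refine ⟨B \ P, sdiff_subset, ?_, ?_, ?_⟩
  · intro x
    rw [hF1, hF2]
    rcases hPQ x with h | h
    · exact Or.inl (hPsub h)
    · exact Or.inr (hQsub h)
  · rw [hF1]; exact hPsub (hCP (mem_insert _ _))
  · rw [hF2]; exact hQsub (hCQ (mem_insert _ _))

end Vale.Agent.Lib.P317
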