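import Mathlib
import Vale.Agent.Lib.P317.Key

/-!
# P317: every base of `M₂` is close to a common base when `M₁` has large girth
-/

namespace Vale.Agent.Lib.P317

open Set

variable {α : Type*} [Finite α]

/-- Closures of subsets of a base intersect as expected (finite families). -/
theorem mem_closure_sdiff_biUnion {M : Matroid α} (hE : M.E = univ) {B : Set α} (hB : M.IsBase B)
    (F : α → Set α) (S : Finset α) (x : α) (h : ∀ e ∈ S, x ∈ M.closure (B \ F e)) :
    x ∈ M.closure (B \ ⋃ e ∈ S, F e) := by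
  classical
  induction S using Finset.induction_on with
  | empty => simp [hB.closure_eq, hE]
  | insert a S _ ih =>
    have h1 : x ∈ M.closure (B \ F a) := h a (Finset.mem_insert_self a S)
    have h2 : x ∈ M.closure (B \ ⋃ e ∈ S, F e) :=
      ih fun e he => h e (Finset.mem_insert_of_mem he)
    have hset : B \ ⋃ e ∈ insert a S, F e = (B \ F a) ∩ (B \ ⋃ e ∈ S, F e) := by
      rw [Finset.set_biUnion_insert]
      ext y
      constructor
      · rintro ⟨hy, hn⟩
        exact ⟨⟨hy, fun h => hn (Or.inl h)⟩, ⟨hy, fun h => hn (Or.inr h)⟩⟩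
      · rintro ⟨⟨hy, h1⟩, ⟨_, h2⟩⟩
        exact ⟨hy, fun h => h.elim h1 h2⟩
    have hind : M.Indep ((B \ F a) ∪ (B \ ⋃ e ∈ S, F e)) :=
      hB.indep.subset (union_subset sdiff_subset sdiff_subset)
    rw [hset, hind.closure_inter_eq_inter_closure]
    exact ⟨h1, h2⟩

theorem dist (M₁ M₂ : Matroid α) (r k : ℕ) (hE₁ : M₁.E = univ) (hE₂ : M₂.E = univ)
    (hr₁ : M₁.eRank = r) (hr₂ : M₂.eRank = r)
    (hk : ∀ S : Set α, S.ncard + k ≤ r → M₁.Indep S)
    (hN : ∃ B, M₁.IsBase B ∧ M₂.IsBase B) {X : Set α} (hX : M₂.IsBase X) :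
    ∃ B, M₁.IsBase B ∧ M₂.IsBase B ∧ (B \ X).ncard ≤ 2 * k := by
  classical
  obtain ⟨B, ⟨hB₁, hB₂⟩, hmaxB⟩ := Set.exists_max_image {B : Set α | M₁.IsBase B ∧ M₂.IsBase B}
    (fun B => (B ∩ X).ncard) (toFinite _) hN
  refine ⟨B, hB₁, hB₂, ?_⟩
  by_contra hcon
  push Not at hcon
  set D := B ∩ X with hD
  have hBr : B.ncard = r := base_ncard hr₁ hB₁
  have hXr : X.ncard = r := base_ncard hr₂ hX
  have hDt : D.ncard + (B \ X).ncard = r := by
    rw [hD, ← hBr]; exact ncard_inter_add_ncard_sdiff_eq_ncard B X (toFinite _)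
  have hDB : D ⊆ B := inter_subset_left
  have hDX : D ⊆ X := inter_subset_right
  -- the sets `F e`
  have hex : ∀ e : α, ∃ F : Set α, e ∈ X \ B → (F ⊆ B ∧
      (∀ x, x ∈ M₁.closure (B \ F) ∨ x ∈ M₂.closure (D ∪ F)) ∧
      e ∈ M₁.closure (B \ F) ∧ e ∈ M₂.closure (D ∪ F)) := by
    intro e
    by_cases he : e ∈ X \ B
    · have heD : e ∉ D := fun h => he.2 (hDB h)
      have hcard : (insert e D).ncard = D.ncard + 1 := ncard_insert_of_notMem heD (toFinite D)
      have hsubX : insert e D ⊆ X := insert_subset he.1 hDX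
      obtain ⟨F, hF⟩ := key M₁ M₂ r hE₁ hE₂ hr₁ hr₂ hB₁ hB₂ hDB he.2
        (hk _ (by omega)) (hX.indep.subset hsubX) (by
          intro B' h1 h2 hsub
          have := hmaxB B' ⟨h1, h2⟩
          have h3 : (insert e D).ncard ≤ (B' ∩ X).ncard :=
            ncard_le_ncard (subset_inter hsub hsubX) (toFinite _)
          omega)
      exact ⟨F, fun _ => hF⟩
    · exact ⟨∅, fun h => absurd h he⟩
  choose F hF using hex
  -- covering implies a lower bound on the size of the union
  have hcover : ∀ G : Set α, X ⊆ M₂.closure (D ∪ G) → (B \ X).ncard ≤ G.ncard := by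
    intro G hG
    have h1 := ncard_le_of_subset_closure hX.indep hG
    have h2 := ncard_union_le D G
    omega
  have hmono : ∀ (S : Finset α) (e : α), e ∈ S →
      M₂.closure (D ∪ F e) ⊆ M₂.closure (D ∪ ⋃ e ∈ S, F e) := by
    intro S e he
    apply M₂.closure_subset_closure
    apply union_subset_union_right
    exact subset_biUnion_of_mem (u := fun e => F e) (Finset.mem_coe.2 he)
  have hDcl : ∀ G : Set α, D ⊆ M₂.closure (D ∪ G) := fun G =>
    subset_union_left.trans (M₂.subset_closure _ (by simp [hE₂]))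
  -- a point of `X \ B` in all the `M₁`-closures bounds the union by `k`
  have hL : ∀ (S : Finset α) (x : α), (∀ e ∈ S, e ∈ X \ B) → x ∈ X \ B →
      (∀ e ∈ S, x ∈ M₁.closure (B \ F e)) → (⋃ e ∈ S, F e).ncard ≤ k := by
    intro S x hS hx hxS
    have hmem := mem_closure_sdiff_biUnion hE₁ hB₁ F S x hxS
    set G := ⋃ e ∈ S, F e with hG
    have hGB : G ⊆ B := by
      intro y hy
      simp only [hG, mem_iUnion] at hy
      obtain ⟨e, he, hy⟩ := hy
      exact (hF e (hS e he)).1 hy
    have hxn : x ∉ B \ G := fun h => hx.2 h.1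
    have hnot := not_indep_insert (hB₁.indep.subset sdiff_subset) hmem hxn
    have hc1 : (insert x (B \ G)).ncard = (B \ G).ncard + 1 :=
      ncard_insert_of_notMem hxn (toFinite _)
    have hc2 : (B \ G).ncard + G.ncard = B.ncard := ncard_sdiff_add_ncard_of_subset hGB (toFinite _)
    by_contra hlt
    exact hnot (hk _ (by omega))
  -- induction
  have hind : ∀ S : Finset α, (∀ e ∈ S, e ∈ X \ B) → (⋃ e ∈ S, F e).ncard ≤ k := by
    intro S
    induction S using Finset.induction_on with
    | empty => intro _; simp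
    | insert a S _ ih =>
      intro hS
      have hSa : a ∈ X \ B := hS a (Finset.mem_insert_self a S)
      have hS' : ∀ e ∈ S, e ∈ X \ B := fun e he => hS e (Finset.mem_insert_of_mem he)
      have h1 := ih hS'
      have h2 : (F a).ncard ≤ k := by
        have := hL {a} a (by simpa using hSa) hSa (by simpa using (hF a hSa).2.2.1)
        simpa using this
      have h3 : (⋃ e ∈ insert a S, F e).ncard ≤ 2 * k := by
        rw [Finset.set_biUnion_insert]
        have := ncard_union_le (F a) (⋃ e ∈ S, F e)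
        omega
      by_contra hgt
      -- find a point
      have hpt : ∃ x ∈ X \ B, ∀ e ∈ insert a S, x ∈ M₁.closure (B \ F e) := by
        by_contra hno
        push Not at hno
        have hXsub : X ⊆ M₂.closure (D ∪ ⋃ e ∈ insert a S, F e) := by
          intro x hx
          by_cases hxB : x ∈ B
          · exact hDcl _ ⟨hxB, hx⟩
          · obtain ⟨e, he, hne⟩ := hno x ⟨hx, hxB⟩
            rcases (hF e (hS e he)).2.1 x with h | h
            · exact absurd h hne
            · exact hmono _ e he h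
        have := hcover _ hXsub
        omega
      obtain ⟨x, hx, hxS⟩ := hpt
      exact hgt (hL _ x hS hx hxS)
  -- conclusion
  have hfinal := hind (X \ B).toFinite.toFinset (by simp)
  have hXsub : X ⊆ M₂.closure (D ∪ ⋃ e ∈ (X \ B).toFinite.toFinset, F e) := by
    intro x hx
    by_cases hxB : x ∈ B
    · exact hDcl _ ⟨hxB, hx⟩
    · exact hmono _ x (by simpa using ⟨hx, hxB⟩) (hF x ⟨hx, hxB⟩).2.2.2
  have := hcover _ hXsub
  omega

end Vale.Agent.Lib.P317
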