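import Mathlib
import Vale.Agent.Lib.P317.Dist

/-!
# P317: counting bases of `M₂` against common bases
-/

namespace Vale.Agent.Lib.P317

open Set

variable {α : Type*} [Fintype α]

/-- There are at most `(n + 1) ^ m` subsets of size at most `m` in an `n`-element type. -/
theorem small_sets_card (m : ℕ) :
    {S : Set α | S.ncard ≤ m}.ncard ≤ (Fintype.card α + 1) ^ m := by
  classical
  let g : (Fin m → Option α) → Set α := fun f => {a | ∃ i, f i = some a}
  have hsub : {S : Set α | S.ncard ≤ m} ⊆ g '' univ := by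
    intro S hS
    have hS' : S.ncard ≤ m := hS
    set l := (toFinite S).toFinset.toList with hl
    have hlen : l.length ≤ m := by
      rw [hl, Finset.length_toList, ← ncard_eq_toFinset_card S (toFinite S)]
      exact hS'
    refine ⟨fun i => l[(i : ℕ)]?, mem_univ _, ?_⟩
    ext a
    have hmem : a ∈ S ↔ a ∈ l := by simp [hl]
    rw [hmem, List.mem_iff_getElem?]
    constructor
    · rintro ⟨i, hi⟩
      exact ⟨i, hi⟩
    · rintro ⟨i, hi⟩
      have hilt : i < l.length := by
        by_contra hge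
        rw [List.getElem?_eq_none (by omega)] at hi
        exact absurd hi (by simp)
      exact ⟨⟨i, by omega⟩, hi⟩
  calc {S : Set α | S.ncard ≤ m}.ncard ≤ (g '' univ).ncard := ncard_le_ncard hsub (toFinite _)
    _ ≤ (univ : Set (Fin m → Option α)).ncard := ncard_image_le (toFinite _)
    _ = (Fintype.card α + 1) ^ m := by
      rw [ncard_univ, Nat.card_eq_fintype_card]
      simp

theorem count (M₁ M₂ : Matroid α) (r k : ℕ) (hE₁ : M₁.E = univ) (hE₂ : M₂.E = univ)
    (hr₁ : M₁.eRank = r) (hr₂ : M₂.eRank = r)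
    (hk : ∀ S : Set α, S.ncard + k ≤ r → M₁.Indep S)
    (hN : ∃ B, M₁.IsBase B ∧ M₂.IsBase B) :
    {X : Set α | M₂.IsBase X}.ncard ≤
      (Fintype.card α + 1) ^ (4 * k) * {B : Set α | M₁.IsBase B ∧ M₂.IsBase B}.ncard := by
  classical
  set C : Set (Set α) := {B : Set α | M₁.IsBase B ∧ M₂.IsBase B} with hC
  set P : Set (Set α) := {S : Set α | S.ncard ≤ 2 * k} with hP
  let g : Set α × Set α × Set α → Set α := fun p => (p.1 \ p.2.1) ∪ p.2.2
  have hsub : {X : Set α | M₂.IsBase X} ⊆ g '' (C ×ˢ (P ×ˢ P)) := by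
    intro X hX
    obtain ⟨B, hB₁, hB₂, hd⟩ := dist M₁ M₂ r k hE₁ hE₂ hr₁ hr₂ hk hN hX
    have hBr : B.ncard = r := base_ncard hr₁ hB₁
    have hXr : X.ncard = r := base_ncard hr₂ hX
    have h1 : (B ∩ X).ncard + (B \ X).ncard = B.ncard :=
      ncard_inter_add_ncard_sdiff_eq_ncard B X (toFinite _)
    have h2 : (X ∩ B).ncard + (X \ B).ncard = X.ncard :=
      ncard_inter_add_ncard_sdiff_eq_ncard X B (toFinite _)
    rw [inter_comm] at h2
    refine ⟨(B, B \ X, X \ B), ⟨⟨hB₁, hB₂⟩, hd, ?_⟩, ?_⟩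
    · show (X \ B).ncard ≤ 2 * k
      omega
    · show (B \ (B \ X)) ∪ (X \ B) = X
      ext x
      constructor
      · rintro (⟨hx, hn⟩ | hx)
        · exact by_contra fun h => hn ⟨hx, h⟩
        · exact hx.1
      · intro hx
        by_cases hxB : x ∈ B
        · exact Or.inl ⟨hxB, fun h => h.2 hx⟩
        · exact Or.inr ⟨hx, hxB⟩
  have hPc : P.ncard ≤ (Fintype.card α + 1) ^ (2 * k) := small_sets_card (2 * k)
  calc {X : Set α | M₂.IsBase X}.ncard ≤ (g '' (C ×ˢ (P ×ˢ P))).ncard :=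
        ncard_le_ncard hsub (toFinite _)
    _ ≤ (C ×ˢ (P ×ˢ P)).ncard := ncard_image_le (toFinite _)
    _ = C.ncard * (P.ncard * P.ncard) := by rw [ncard_prod, ncard_prod]
    _ ≤ C.ncard * ((Fintype.card α + 1) ^ (2 * k) * (Fintype.card α + 1) ^ (2 * k)) :=
        Nat.mul_le_mul_left _ (Nat.mul_le_mul hPc hPc)
    _ = (Fintype.card α + 1) ^ (4 * k) * C.ncard := by
        rw [← pow_add, mul_comm]; congr 2; omega

end Vale.Agent.Lib.P317
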